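import Vale.Agent.Lib.P184b.Modulus

/-!
# The `l1`-Bass conjecture for nonnegative and for contractive idempotent matrices

`G` is an arbitrary discrete group, `e = (e i j)` an idempotent `q × q` matrix over `l1(G)`
(complex absolutely summable functions on `G` with convolution).  If all coefficients of `e` are
nonnegative reals, or if `e` is contractive for a weighted column-sum or row-sum norm, then the
Hattori-Stallings coefficients of `e` vanish outside a finite set of conjugacy classes of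
elements of finite order.
-/

namespace Vale.Agent.Results.P184.ANonnegOrContractive

open Vale.Agent.Lib.P184b

theorem result (G : Type) [Group G] (q : ℕ) (e : Fin q → Fin q → G → ℂ)
    (hl1 : ∀ i j, Summable (fun g => ‖e i j g‖))
    (hidem : ∀ i k g, ∑ j, ∑' h, e i j h * e j k (h⁻¹ * g) = e i k g)
    (hyp : (∀ i j g, ∃ r : ℝ, 0 ≤ r ∧ e i j g = (r : ℂ)) ∨
      (∃ v : Fin q → ℝ, (∀ i, 0 < v i) ∧ ∀ j, ∑ i, v i * ∑' g, ‖e i j g‖ ≤ v j) ∨
      (∃ v : Fin q → ℝ, (∀ i, 0 < v i) ∧ ∀ i, ∑ j, (∑' g, ‖e i j g‖) * v j ≤ v i)) :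
    ∃ F : Set (ConjClasses G), F.Finite ∧
      (∀ C ∈ F, ∀ g ∈ C.carrier, IsOfFinOrder g) ∧
      ∀ C, C ∉ F → ∑' g : C.carrier, ∑ i, e i i (g : G) = 0 := by
  classical
  have hb : ∀ i k g, ∑ j, ∑' h, ‖e i j h‖ * ‖e j k (h⁻¹ * g)‖ = ‖e i k g‖ := by
    rcases hyp with hpos | ⟨v, hv, hcol⟩ | ⟨v, hv, hrow⟩
    · exact modulus_idem_of_nonneg e hidem hpos
    · exact idem_of_subidem (fun i j g => ‖e i j g‖) (fun _ _ _ => norm_nonneg _) hl1
        (modulus_subidem e hl1 hidem) v hv hcol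
    · exact idem_of_subidem_row (fun i j g => ‖e i j g‖) (fun _ _ _ => norm_nonneg _) hl1
        (modulus_subidem e hl1 hidem) v hv hrow
  have hcore := fun i => core (fun i j g => ‖e i j g‖) (fun _ _ _ => norm_nonneg _) hl1 hb i
  refine ⟨ConjClasses.mk '' (⋃ i, {g | ‖e i i g‖ ≠ 0}), ?_, ?_, ?_⟩
  · exact (Set.finite_iUnion (fun i => (hcore i).1)).image _
  · rintro C ⟨g0, hg0, rfl⟩ g hg
    obtain ⟨i, hi⟩ := Set.mem_iUnion.1 hg0
    have hfin : IsOfFinOrder g0 := (hcore i).2 g0 hi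
    have hconj : IsConj g g0 :=
      ConjClasses.mk_eq_mk_iff_isConj.1 (ConjClasses.mem_carrier_iff_mk_eq.1 hg)
    obtain ⟨c, hc⟩ := isConj_iff.1 hconj.symm
    rw [← hc]
    obtain ⟨n, hn, hpow⟩ := isOfFinOrder_iff_pow_eq_one.1 hfin
    refine isOfFinOrder_iff_pow_eq_one.2 ⟨n, hn, ?_⟩
    rw [conj_pow, hpow, mul_one, mul_inv_cancel]
  · intro C hC
    have hz : ∀ g : C.carrier, ∑ i, e i i (g : G) = 0 := by
      intro g
      refine Finset.sum_eq_zero (fun i _ => ?_)
      by_contra hne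
      apply hC
      refine ⟨(g : G), Set.mem_iUnion.2 ⟨i, ?_⟩, ConjClasses.mem_carrier_iff_mk_eq.1 g.2⟩
      exact fun h => hne (norm_eq_zero.1 h)
    simp only [hz, tsum_zero]

end Vale.Agent.Results.P184.ANonnegOrContractive
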