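import Vale.Agent.Lib.P184.Main

/-!
# P184: the l1-Bass conjecture for contractive idempotent matrices, over every group
-/

namespace Vale.Agent.Results.P184.ContractiveIdempotents

open Vale.Agent.Lib.P184

/-- For every discrete group `G`, every `q` and every idempotent matrix `e ∈ M_q(ℓ¹(G))` which is
contractive for the column-sum norm `max_j ∑_i ‖e_ij‖₁` (the operator norm of `e` on the
`ℓ¹`-direct sum `ℓ¹(G)^q`) or for the row-sum norm `max_i ∑_j ‖e_ij‖₁`, the conclusion of the
`ℓ¹`-Bass conjecture holds; in fact every diagonal entry `e_ii` has finite support consisting of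
elements of finite order. -/
theorem result (G : Type*) [Group G] (q : ℕ) (e : Fin q → Fin q → G → ℂ)
    (he : IsL1Idempotent e)
    (hnorm : (∀ j, ∑ i, l1norm (e i j) ≤ 1) ∨ (∀ i, ∑ j, l1norm (e i j) ≤ 1)) :
    BassConclusion e ∧ (∀ i, {a : G | e i i a ≠ 0}.Finite) ∧
      ∀ i a, e i i a ≠ 0 → IsOfFinOrder a := by
  have h : (∀ i, {a : G | e i i a ≠ 0}.Finite) ∧ (∀ i a, e i i a ≠ 0 → IsOfFinOrder a) := by
    rcases hnorm with hc | hr
    · exact diag_of_col e he hc
    · exact diag_of_row e he hr
  exact ⟨bass_of_diag e h.1 h.2, h.1, h.2⟩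

end Vale.Agent.Results.P184.ContractiveIdempotents
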